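import Vale.Agent.P088.H393.UEsfD

/-!
# P088, theorem J, row ESFU: the bridge from the solutions to the two equations
-/

open MeasureTheory Set Filter Topology
open scoped ContDiff Matrix

noncomputable section

namespace Vale.Agent.P088.H106

open Vale.Agent.P088.LR Vale.Agent.P088.LR.CF Vale.Agent.P088.LR.H158 Vale.Agent.P088.LR.U
  Vale.Agent.P088.LR.U.H393

variable {n N : ℕ}

theorem vec_cd {W : Fin N → V n → ℂ} (hW : ∀ a, ContDiff ℝ ∞ (W a)) :
    ContDiff ℝ ∞ fun y a => W a y := contDiff_pi.2 hW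

theorem vec_pd {W : Fin N → V n → ℂ} (hW : ∀ a, ContDiff ℝ ∞ (W a)) (i : Fin n) (x : V n)
    (a : Fin N) : pd i (fun y a => W a y) x a = pd i (W a) x :=
  pd_pi (dfa (vec_cd hW) x) i a

theorem pd_vecMul {P : MC n N} (hP : SmC P) {u : V n → Fin N → ℂ} (hu : ContDiff ℝ ∞ u)
    (i : Fin n) (x : V n) :
    pd i (fun x => u x ᵥ* P x) x = pd i u x ᵥ* P x + u x ᵥ* pdm i P x := by
  have h1 : SmC fun x => (P x)ᵀ := fun a b => hP b a
  have h2 := pd_mulVec h1 hu i x
  have h3 : (fun x => (P x)ᵀ *ᵥ u x) = fun x => u x ᵥ* P x := by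
    funext y
    rw [Matrix.mulVec_transpose]
  have h4 : pdm i (fun x => (P x)ᵀ) x = (pdm i P x)ᵀ := rfl
  rw [h3, h4, Matrix.mulVec_transpose, Matrix.mulVec_transpose] at h2
  rw [h2, add_comm]

theorem contDiff_vecMul {P : MC n N} (hP : SmC P) {u : V n → Fin N → ℂ}
    (hu : ContDiff ℝ ∞ u) : ContDiff ℝ ∞ fun x => u x ᵥ* P x := by
  have h1 : SmC fun x => (P x)ᵀ := fun a b => hP b a
  have h3 : (fun x => (P x)ᵀ *ᵥ u x) = fun x => u x ᵥ* P x := by
    funext y
    rw [Matrix.mulVec_transpose]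
  rw [← h3]
  exact contDiff_mulVec h1 hu

theorem sum_dg_mulVec (τ : MC n N) (u : V n → Fin N → ℂ) (i : Fin n) (y : V n) :
    ∑ j, dg τ i j y *ᵥ pd j u y = τ y *ᵥ pd i u y := by
  rw [Finset.sum_eq_single i]
  · unfold dg
    rw [if_pos rfl]
  · intro j _ hj
    unfold dg
    rw [if_neg (Ne.symm hj), Matrix.zero_mulVec]
  · intro h
    exact absurd (Finset.mem_univ i) h

theorem bru : RowBrU := by
  intro n N Ω τ τi κ h q hB χ hχ hc z θ β y c W hS x hx
  have hu : ContDiff ℝ ∞ fun y a => W a y := vec_cd hS.sW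
  set u : V n → Fin N → ℂ := fun y a => W a y with hudef
  have hpu : ∀ i, ContDiff ℝ ∞ (pd i u) := fun i => H158.contDiff_pd hu i
  -- the equation in vector form
  have e1 : ∑ i, pd i (pd i u) x + ∑ j, PU τ τi κ j x *ᵥ pd j u x = 0 := by
    funext a
    have h1 := hS.eq a x (hc hx)
    have h2 : ∀ i, pd i (pd i u) x a = pd i (fun y => pd i (W a) y +
        ∑ j, ∑ b, (fun (_ _ : Fin n) (_ _ : Fin N) (_ : V n) => (0 : ℂ)) i j a b y *
          pd j (W b) y) x := by
      intro i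
      rw [pd_pi (dfa (hpu i) x) i a]
      congr 1
      funext y
      simp only [zero_mul, Finset.sum_const_zero, add_zero]
      exact vec_pd hS.sW i y a
    have h3 : ∀ j, (PU τ τi κ j x *ᵥ pd j u x) a = ∑ b, LU χ τ τi κ j a b x * pd j (W b) x := by
      intro j
      simp only [Matrix.mulVec, dotProduct]
      refine Finset.sum_congr rfl fun b _ => ?_
      unfold LU ce
      rw [hχ x hx, hudef, vec_pd hS.sW j x b, Complex.ofReal_one, one_mul]
    rw [Pi.add_apply, Finset.sum_apply, Finset.sum_apply, Finset.sum_congr rfl fun i _ => h2 i,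
      Finset.sum_congr rfl fun j _ => h3 j]
    exact h1
  have e2 : ∀ i, pd i (fun y => ∑ j, dg τ i j y *ᵥ pd j u y) x =
      pdm i τ x *ᵥ pd i u x + τ x *ᵥ pd i (pd i u) x := by
    intro i
    have : (fun y => ∑ j, dg τ i j y *ᵥ pd j u y) = fun y => τ y *ᵥ pd i u y :=
      funext fun y => sum_dg_mulVec τ u i y
    rw [this, pd_mulVec hB.sτ (hpu i)]
  have e3 : τ x *ᵥ ∑ i, pd i (pd i u) x = -∑ j, (pdm j τ x + κ j x) *ᵥ pd j u x := by
    have h1 : ∑ i, pd i (pd i u) x = -∑ j, PU τ τi κ j x *ᵥ pd j u x := eq_neg_of_add_eq_zero_left e1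
    rw [h1, Matrix.mulVec_neg, Matrix.mulVec_sum]
    congr 1
    refine Finset.sum_congr rfl fun j _ => ?_
    unfold PU
    rw [Matrix.mulVec_mulVec, ← mul_assoc, hB.inv x, one_mul]
  unfold Mo
  rw [Finset.sum_congr rfl fun i _ => e2 i, Finset.sum_add_distrib, ← Matrix.mulVec_sum, e3]
  simp only [Matrix.add_mulVec, Finset.sum_add_distrib]
  abel

theorem sum_dg_vecMul (τ : MC n N) (u : V n → Fin N → ℂ) (i : Fin n) (y : V n) :
    ∑ j, pd j u y ᵥ* dg τ j i y = pd i u y ᵥ* τ y := by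
  rw [Finset.sum_eq_single i]
  · unfold dg
    rw [if_pos rfl]
  · intro j _ hj
    unfold dg
    rw [if_neg hj, Matrix.vecMul_zero]
  · intro h
    exact absurd (Finset.mem_univ i) h

theorem brw : RowBrW := by
  intro n N Ω τ τi κ h q hB χ hχ hc z θ β y c W hS x hx
  have hu : ContDiff ℝ ∞ fun y a => W a y := vec_cd hS.sW
  set u : V n → Fin N → ℂ := fun y a => W a y with hudef
  have hpu : ∀ i, ContDiff ℝ ∞ (pd i u) := fun i => H158.contDiff_pd hu i
  have hinv : ∀ x, τi x * τ x = 1 := fun x => mul_eq_one_comm.1 (hB.inv x)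
  -- the flux `G_i`
  set G : Fin n → V n → Fin N → ℂ := fun i y => pd i u y + ∑ j, pd j u y ᵥ* (h j i y * τi y)
    with hG
  have hGs : ∀ i, ContDiff ℝ ∞ (G i) := fun i =>
    (hpu i).add (ContDiff.sum fun j _ => contDiff_vecMul (SmC_mul (hB.sh j i) hB.si) (hpu j))
  set Lam : Fin n → Matrix (Fin N) (Fin N) ℂ := fun j =>
    PW τ τi κ j x + ((∑ i, h j i x * τi x * pdm i τ x) - q j x) * τi x with hLam
  -- the equation in vector form
  have e1 : ∑ i, pd i (G i) x + ∑ j, pd j u x ᵥ* Lam j = 0 := by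
    funext a
    have h1 := hS.eq a x (hc hx)
    have h2 : ∀ i, pd i (G i) x a = pd i (fun y => pd i (W a) y +
        ∑ j, ∑ b, HW τi h i j a b y * pd j (W b) y) x := by
      intro i
      rw [pd_pi (dfa (hGs i) x) i a]
      congr 1
      funext y
      rw [hG]
      simp only [Pi.add_apply, Finset.sum_apply]
      rw [hudef, vec_pd hS.sW i y a]
      congr 1
      refine Finset.sum_congr rfl fun j _ => ?_
      simp only [Matrix.vecMul, dotProduct]
      refine Finset.sum_congr rfl fun b _ => ?_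
      rw [vec_pd hS.sW j y b, mul_comm]
      rfl
    have h3 : ∀ j, (pd j u x ᵥ* Lam j) a = ∑ b, LW χ τ τi κ h q j a b x * pd j (W b) x := by
      intro j
      simp only [Matrix.vecMul, dotProduct]
      refine Finset.sum_congr rfl fun b _ => ?_
      unfold LW LW0 ce
      rw [hχ x hx, hudef, vec_pd hS.sW j x b, Complex.ofReal_one, one_mul, mul_comm, hLam]
      rfl
    rw [Pi.add_apply, Finset.sum_apply, Finset.sum_apply, Finset.sum_congr rfl fun i _ => h2 i,
      Finset.sum_congr rfl fun j _ => h3 j]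
    exact h1
  have e2 : ∀ i, pd i (fun y => ∑ j, pd j u y ᵥ* (dg τ j i y + h j i y)) x =
      pd i (G i) x ᵥ* τ x + G i x ᵥ* pdm i τ x := by
    intro i
    have : (fun y => ∑ j, pd j u y ᵥ* (dg τ j i y + h j i y)) = fun y => G i y ᵥ* τ y := by
      funext y
      rw [hG]
      simp only [Matrix.vecMul_add, Finset.sum_add_distrib, Matrix.add_vecMul]
      rw [sum_dg_vecMul, Matrix.sum_vecMul]
      congr 1
      refine Finset.sum_congr rfl fun j _ => ?_
      rw [Matrix.vecMul_vecMul, mul_assoc, hinv y, mul_one]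
    rw [this, pd_vecMul hB.sτ (hGs i)]
  have e3 : (∑ i, pd i (G i) x) ᵥ* τ x = -∑ j, pd j u x ᵥ* (Lam j * τ x) := by
    have h1 : ∑ i, pd i (G i) x = -∑ j, pd j u x ᵥ* Lam j := eq_neg_of_add_eq_zero_left e1
    rw [h1, Matrix.neg_vecMul, Matrix.sum_vecMul]
    congr 1
    exact Finset.sum_congr rfl fun j _ => Matrix.vecMul_vecMul _ _ _
  have e4 : ∀ j, Lam j * τ x = pdm j τ x - κ j x + ((∑ i, h j i x * τi x * pdm i τ x) - q j x) := by
    intro j
    rw [hLam]
    simp only [PW]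
    rw [add_mul, mul_assoc, hinv x, mul_one, mul_assoc, hinv x, mul_one]
  have e5 : ∑ i, G i x ᵥ* pdm i τ x = ∑ i, pd i u x ᵥ* pdm i τ x +
      ∑ j, pd j u x ᵥ* ∑ i, h j i x * τi x * pdm i τ x := by
    rw [hG]
    simp only [Matrix.add_vecMul, Finset.sum_add_distrib, Matrix.sum_vecMul]
    congr 1
    rw [Finset.sum_comm]
    refine Finset.sum_congr rfl fun j _ => ?_
    rw [Matrix.vecMul_sum]
    exact Finset.sum_congr rfl fun i _ => Matrix.vecMul_vecMul _ _ _
  unfold Mt
  rw [Finset.sum_congr rfl fun i _ => e2 i, Finset.sum_add_distrib, ← Matrix.sum_vecMul, e3, e5,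
    Finset.sum_congr rfl fun j _ => by rw [e4 j]]
  simp only [Matrix.vecMul_add, Matrix.vecMul_sub, Finset.sum_add_distrib,
    Finset.sum_sub_distrib]
  abel

end Vale.Agent.P088.H106
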