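import Vale.Agent.P088.H599.J.Defs

/-!
# P088, theorem J: the equation in the harmonic frame (row U_GAU)
-/

open MeasureTheory Set Filter Topology
open scoped ContDiff Matrix

noncomputable section

namespace Vale.Agent.P088.H106

open Vale.Agent.P088.LR Vale.Agent.P088.LR.H158 Vale.Agent.P088.LR.U

variable {n N : ℕ}

theorem smC_add {P Q : MC n N} (hP : SmC P) (hQ : SmC Q) : SmC fun x => P x + Q x := fun a b =>
  (hP a b).add (hQ a b)

theorem smC_sum {ι : Type*} (u : Finset ι) {P : ι → MC n N} (hP : ∀ i, SmC (P i)) :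
    SmC fun x => ∑ i ∈ u, P i x := by
  intro a b
  simp only [Matrix.sum_apply]
  exact ContDiff.sum fun i _ => hP i a b

theorem smC_smul {c : V n → ℝ} (hc : ContDiff ℝ ∞ c) {P : MC n N} (hP : SmC P) :
    SmC fun x => (c x : ℂ) • P x := fun a b =>
  (Complex.ofRealCLM.contDiff.comp hc).mul (hP a b)

theorem smC_pdm {P : MC n N} (hP : SmC P) (i : Fin n) : SmC (pdm i P) := fun a b =>
  contDiff_pd (hP a b) i

theorem smC_cdC {A : Cn n N} (hA : SmU A) {P : MC n N} (hP : SmC P) (i : Fin n) :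
    SmC (cdC A i P) := smC_add (smC_pdm hP i) (SmC_mul (hA.1 i) hP)

theorem smC_flC {s : MF n} (hs : SmM s) {A : Cn n N} (hA : SmU A) {P : MC n N} (hP : SmC P)
    (i : Fin n) : SmC (flC s A P i) :=
  smC_sum _ fun j => smC_smul (hs i j) (smC_cdC hA hP j)

theorem pdm_add {P Q : MC n N} (hP : SmC P) (hQ : SmC Q) (i : Fin n) (x : V n) :
    pdm i (fun y => P y + Q y) x = pdm i P x + pdm i Q x := by
  ext a b
  simp only [pdm, Matrix.of_apply, Matrix.add_apply]
  exact pd_add (dfa (hP a b) x) (dfa (hQ a b) x) i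

theorem cdC_add {A : Cn n N} {P Q : MC n N} (hP : SmC P) (hQ : SmC Q) (i : Fin n) (x : V n) :
    cdC A i (fun y => P y + Q y) x = cdC A i P x + cdC A i Q x := by
  unfold cdC
  rw [pdm_add hP hQ, mul_add]
  abel

theorem cdC_mul {A : Cn n N} {P Q : MC n N} (hP : SmC P) (hQ : SmC Q) (i : Fin n) (x : V n) :
    cdC A i (fun y => P y * Q y) x = cdC A i P x * Q x + P x * pdm i Q x := by
  unfold cdC
  rw [pdm_mul hP hQ, add_mul, mul_assoc]
  abel

/-- `G_i = ∑_j s_ij ∂_j Y`. -/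
def Gr (s : MF n) (Y : MC n N) (i : Fin n) : MC n N := fun x => ∑ j, (s x i j : ℂ) • pdm j Y x

theorem smC_Gr {s : MF n} (hs : SmM s) {Y : MC n N} (hY : SmC Y) (i : Fin n) : SmC (Gr s Y i) :=
  smC_sum _ fun j => smC_smul (hs i j) (smC_pdm hY j)

theorem flC_mul {s : MF n} {A : Cn n N} {F Y : MC n N} (hF : SmC F) (hY : SmC Y) (i : Fin n)
    (x : V n) :
    flC s A (fun y => F y * Y y) i x = flC s A F i x * Y x + F x * Gr s Y i x := by
  unfold flC Gr
  rw [Finset.sum_mul, Finset.mul_sum, ← Finset.sum_add_distrib]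
  refine Finset.sum_congr rfl fun j _ => ?_
  rw [cdC_mul hF hY, smul_add, smul_mul_assoc, mul_smul_comm]

theorem LaC_mul {s : MF n} (hs : SmM s) {A : Cn n N} (hA : SmU A) {F Y : MC n N} (hF : SmC F)
    (hY : SmC Y) (x : V n) :
    LaC s A (fun y => F y * Y y) x = LaC s A F x * Y x + ∑ i, flC s A F i x * pdm i Y x +
      ∑ i, cdC A i F x * Gr s Y i x + F x * ∑ i, pdm i (Gr s Y i) x := by
  unfold LaC
  rw [Finset.sum_mul, Finset.mul_sum, ← Finset.sum_add_distrib, ← Finset.sum_add_distrib,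
    ← Finset.sum_add_distrib]
  refine Finset.sum_congr rfl fun i _ => ?_
  have e : flC s A (fun y => F y * Y y) i = fun x => flC s A F i x * Y x + F x * Gr s Y i x :=
    funext fun x => flC_mul hF hY i x
  rw [e, cdC_add (SmC_mul (smC_flC hs hA hF i) hY) (SmC_mul hF (smC_Gr hs hY i)),
    cdC_mul (smC_flC hs hA hF i) hY, cdC_mul hF (smC_Gr hs hY i)]
  abel

theorem pdm_PF {A : Cn n N} (hA : SmU A) {F : MC n N} (hF : SmC F) (i : Fin n) (x : V n) :
    pdm i (PF F) x = (cdC A i F x)ᴴ * F x + (F x)ᴴ * cdC A i F x := by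
  have e : pdm i (PF F) x = (pdm i F x)ᴴ * F x + (F x)ᴴ * pdm i F x := by
    unfold PF
    rw [pdm_mul (SmC_star hF) hF, pdm_star hF]
  rw [e]
  unfold cdC
  rw [Matrix.conjTranspose_add, Matrix.conjTranspose_mul, hA.2 i x, add_mul, mul_add]
  simp only [Matrix.mul_neg, Matrix.neg_mul, Matrix.mul_assoc]
  abel

theorem sum_flC {s : MF n} (hsym : ∀ x, (s x).IsSymm) {A : Cn n N} {F Y : MC n N} (x : V n) :
    ∑ i, flC s A F i x * pdm i Y x = ∑ i, cdC A i F x * Gr s Y i x := by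
  unfold flC Gr
  simp only [Finset.sum_mul, Finset.mul_sum]
  rw [Finset.sum_comm]
  refine Finset.sum_congr rfl fun i _ => Finset.sum_congr rfl fun j _ => ?_
  rw [(hsym x).apply i j, smul_mul_assoc, mul_smul_comm]

theorem sum_qF {s : MF n} (hsym : ∀ x, (s x).IsSymm) {A : Cn n N} {F Y : MC n N} (x : V n) :
    ∑ i, qF s A F i x * pdm i Y x =
      ∑ i, ((F x)ᴴ * cdC A i F x - (cdC A i F x)ᴴ * F x) * Gr s Y i x := by
  unfold qF Gr KF
  simp only [Finset.sum_mul, Finset.mul_sum]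
  rw [Finset.sum_comm]
  refine Finset.sum_congr rfl fun i _ => Finset.sum_congr rfl fun j _ => ?_
  rw [(hsym x).apply i j, smul_mul_assoc, mul_smul_comm]

/-- `M Y = F* (L(F Y) - (L F) Y)`. -/
theorem MoC_eq {s : MF n} (hs : SmM s) (hsym : ∀ x, (s x).IsSymm) {A : Cn n N} (hA : SmU A)
    {F Y : MC n N} (hF : SmC F) (hY : SmC Y) (x : V n) :
    MoC (TF s F) (qF s A F) Y x =
      (F x)ᴴ * (LaC s A (fun y => F y * Y y) x - LaC s A F x * Y x) := by
  have e1 : ∀ i, (fun y => ∑ j, TF s F i j y * pdm j Y y) = fun y => PF F y * Gr s Y i y := by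
    intro i
    funext y
    unfold TF Gr
    rw [Finset.mul_sum]
    refine Finset.sum_congr rfl fun j _ => ?_
    rw [smul_mul_assoc, mul_smul_comm]
  have hP : SmC (PF F) := SmC_mul (SmC_star hF) hF
  have e2 : MoC (TF s F) (qF s A F) Y x =
      ∑ i, (((cdC A i F x)ᴴ * F x + (F x)ᴴ * cdC A i F x) * Gr s Y i x +
        PF F x * pdm i (Gr s Y i) x) +
        ∑ i, ((F x)ᴴ * cdC A i F x - (cdC A i F x)ᴴ * F x) * Gr s Y i x := by
    unfold MoC
    rw [sum_qF hsym]
    congr 1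
    refine Finset.sum_congr rfl fun i _ => ?_
    rw [e1, pdm_mul hP (smC_Gr hs hY i), pdm_PF hA hF]
  have e3 : (F x)ᴴ * (LaC s A (fun y => F y * Y y) x - LaC s A F x * Y x) =
      ∑ i, ((F x)ᴴ * cdC A i F x * Gr s Y i x + (F x)ᴴ * cdC A i F x * Gr s Y i x +
        PF F x * pdm i (Gr s Y i) x) := by
    rw [LaC_mul hs hA hF hY, sum_flC hsym]
    have : LaC s A F x * Y x + ∑ i, cdC A i F x * Gr s Y i x +
        ∑ i, cdC A i F x * Gr s Y i x + F x * ∑ i, pdm i (Gr s Y i) x - LaC s A F x * Y x =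
        ∑ i, cdC A i F x * Gr s Y i x + ∑ i, cdC A i F x * Gr s Y i x +
          F x * ∑ i, pdm i (Gr s Y i) x := by abel
    rw [this, mul_add, mul_add, Finset.mul_sum, Finset.mul_sum, Finset.mul_sum,
      Finset.sum_add_distrib, Finset.sum_add_distrib]
    simp only [Matrix.mul_assoc, PF]
  rw [e2, e3, ← Finset.sum_add_distrib]
  refine Finset.sum_congr rfl fun i _ => ?_
  rw [add_mul, sub_mul]
  abel

/-- **(U_GAU)** -/
theorem gau : RowGAU := by
  intro n N Ω hΩ s hs hsym A hA F Y hF hY h1 h2 x hx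
  rw [MoC_eq hs hsym hA hF hY, h2 x hx, h1 x hx, zero_mul, sub_zero, mul_zero]

end Vale.Agent.P088.H106
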