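import Vale.Agent.P088.H106.UWK
import Vale.Agent.P088.H924.Frame

/-!
# P088, theorem J: the reduction to the harmonic frame (row U_RED)
-/

open MeasureTheory Set Filter Topology
open scoped ContDiff Matrix

noncomputable section

namespace Vale.Agent.P088.H106

open Vale.Agent.P088.LR Vale.Agent.P088.LR.H158

variable {n N : ℕ}

/-! ## The words of 599 are the words of 924 -/

theorem LaC_eq (s : MF n) (A : Cn n N) (F : U.MC n N) (x : V n) :
    U.LaC s A F x = H924.LF s A F x := rfl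

theorem qF_kF (s : MF n) (A : Cn n N) (F : U.MC n N) (i : Fin n) :
    U.qF s A F i = H924.kF s A F i := rfl

theorem TF_TF (s : MF n) (F : U.MC n N) (i j : Fin n) : U.TF s F i j = H924.TF s F i j := rfl

theorem TF_sym {s : MF n} (hsym : ∀ x, (s x).IsSymm) (F : U.MC n N) (i j : Fin n) (x : V n) :
    U.TF s F i j x = U.TF s F j i x := by
  unfold U.TF
  rw [(hsym x).apply j i]

theorem TF_herm (s : MF n) (F : U.MC n N) (i j : Fin n) (x : V n) :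
    (U.TF s F i j x)ᴴ = U.TF s F i j x := by
  unfold U.TF U.PF
  rw [Matrix.conjTranspose_smul, Complex.star_def, Complex.conj_ofReal,
    Matrix.conjTranspose_mul, Matrix.conjTranspose_conjTranspose]

theorem qF_herm (s : MF n) (A : Cn n N) (F : U.MC n N) (i : Fin n) (x : V n) :
    (U.qF s A F i x)ᴴ = -U.qF s A F i x := by
  unfold U.qF U.KF
  rw [Matrix.conjTranspose_sum, ← Finset.sum_neg_distrib]
  refine Finset.sum_congr rfl fun j _ => ?_
  rw [Matrix.conjTranspose_smul, Complex.star_def, Complex.conj_ofReal,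
    Matrix.conjTranspose_sub, Matrix.conjTranspose_mul, Matrix.conjTranspose_mul,
    Matrix.conjTranspose_conjTranspose, Matrix.conjTranspose_conjTranspose, ← smul_neg, neg_sub]

theorem Mo_eq {s : MF n} (hsym : ∀ x, (s x).IsSymm) (A : Cn n N) (F : U.MC n N)
    (u : V n → Fin N → ℂ) (x : V n) :
    U.Mo (U.TF s F) (U.qF s A F) u x = H924.MFr s A F u x := by
  unfold U.Mo H924.MFr
  congr 1
  refine Finset.sum_congr rfl fun i _ => ?_
  congr 1
  funext y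
  refine Finset.sum_congr rfl fun j _ => ?_
  rw [TF_sym hsym F i j y, TF_TF]

theorem pd_starv {v : V n → Fin N → ℂ} (hv : ContDiff ℝ ∞ v) (i : Fin n) (x : V n) :
    pd i (fun y => star (v y)) x = star (pd i v x) := by
  have hs : ContDiff ℝ ∞ fun y => star (v y) := by
    rw [contDiff_pi]
    intro b
    exact contDiff_star ((contDiff_pi.1 hv) b)
  funext b
  rw [pd_pi (dfa hs x) i b, Pi.star_apply, pd_pi (dfa hv x) i b]
  exact pd_star (dfa ((contDiff_pi.1 hv) b) x) i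

theorem contDiff_starv {v : V n → Fin N → ℂ} (hv : ContDiff ℝ ∞ v) :
    ContDiff ℝ ∞ fun y => star (v y) := by
  rw [contDiff_pi]
  intro b
  exact contDiff_star ((contDiff_pi.1 hv) b)

theorem smC_TF {s : MF n} (hs : SmM s) {F : U.MC n N} (hF : SmC F) (i j : Fin n) :
    SmC (U.TF s F i j) :=
  H924.smC_smul (Complex.ofRealCLM.contDiff.comp (hs i j)) (SmC_mul (SmC_star hF) hF)

/-- The transposed operator. -/
theorem Mt_star {s : MF n} (hs : SmM s) (hsym : ∀ x, (s x).IsSymm) (A : Cn n N)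
    {F : U.MC n N} (hF : SmC F) {v : V n → Fin N → ℂ} (hv : ContDiff ℝ ∞ v) (x : V n) :
    U.Mt (U.TF s F) (U.qF s A F) (fun y => star (v y)) x =
      star (U.Mo (U.TF s F) (U.qF s A F) v x) := by
  unfold U.Mt U.Mo
  have hsm : ∀ i, ContDiff ℝ ∞ fun y => ∑ j, U.TF s F i j y *ᵥ pd j v y := fun i =>
    ContDiff.sum fun j _ => contDiff_mulVec (smC_TF hs hF i j) (H158.contDiff_pd hv j)
  rw [star_add, star_sum, star_sum, sub_eq_add_neg, ← Finset.sum_neg_distrib]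
  congr 1
  · refine Finset.sum_congr rfl fun i _ => ?_
    rw [← pd_starv (hsm i)]
    congr 1
    funext y
    rw [star_sum]
    refine Finset.sum_congr rfl fun j _ => ?_
    rw [pd_starv hv, Matrix.star_mulVec, TF_herm, TF_sym hsym F j i y]
  · refine Finset.sum_congr rfl fun i _ => ?_
    rw [pd_starv hv, Matrix.star_mulVec, qF_herm, Matrix.vecMul_neg]

theorem lav_zero {s : MF n} (hs : SmM s) (hsym : ∀ x, (s x).IsSymm) {A : Cn n N} (hA : SmU A)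
    {F : U.MC n N} (hF : SmC F) {u : V n → Fin N → ℂ} (hu : ContDiff ℝ ∞ u) {x : V n}
    (hdet : IsUnit (F x).det) (h0 : U.LaC s A F x = 0)
    (h1 : U.Mo (U.TF s F) (U.qF s A F) u x = 0) : U.lav s A (fun y => F y *ᵥ u y) x = 0 := by
  have h2 := H924.frame_M hs hsym hA hF hu (x := x) h0
  rw [← Mo_eq hsym, h1] at h2
  refine Matrix.eq_zero_of_mulVec_eq_zero ?_ h2
  rw [Matrix.det_conjTranspose]
  exact (star_ne_zero.2 hdet.ne_zero)

/-! ## Linearity of the form -/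

theorem qf_contS {s : MF n} (hs : SmM s) {A : Cn n N} (hA : SmU A)
    {u v : V n → Fin N → ℂ} (hu : ContDiff ℝ ∞ u) (hv : ContDiff ℝ ∞ v) :
    Continuous fun x => qf (s x) (fun i => cd A i u x) (fun i => cd A i v x) := by
  unfold qf
  refine continuous_finsetSum _ fun i _ => continuous_finsetSum _ fun j _ => ?_
  refine (Complex.continuous_ofReal.comp (hs i j).continuous).mul ?_
  simp only [dotProduct, Pi.star_apply]
  refine continuous_finsetSum _ fun b _ => ?_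
  exact ((continuous_pi_iff.1 (contDiff_cd hA hu i).continuous) b).mul
    (continuous_star.comp ((continuous_pi_iff.1 (contDiff_cd hA hv j).continuous) b))

theorem ea_sub {Ω : Set (V n)} (hb : Bornology.IsBounded Ω) {s : MF n} (hs : SmM s)
    {A : Cn n N} (hA : SmU A) {u v v' : V n → Fin N → ℂ} (hu : ContDiff ℝ ∞ u)
    (hv : ContDiff ℝ ∞ v) (hv' : ContDiff ℝ ∞ v') :
    U.ea Ω s A u (fun x => v x - v' x) = U.ea Ω s A u v - U.ea Ω s A u v' := by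
  rw [ea_eq, ea_eq, ea_eq, ← integral_sub (intOn hb (qf_contS hs hA hu hv))
    (intOn hb (qf_contS hs hA hu hv'))]
  congr 1
  funext x
  unfold qf
  rw [← Finset.sum_sub_distrib]
  refine Finset.sum_congr rfl fun i _ => ?_
  rw [← Finset.sum_sub_distrib]
  refine Finset.sum_congr rfl fun j _ => ?_
  show (s x i j : ℂ) * (cd A i u x ⬝ᵥ star (cd A j (fun x => v x - v' x) x)) =
    (s x i j : ℂ) * (cd A i u x ⬝ᵥ star (cd A j v x)) -
      (s x i j : ℂ) * (cd A i u x ⬝ᵥ star (cd A j v' x))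
  rw [cd_sub A hv hv', star_sub, dotProduct_sub, mul_sub]

/-! ## Equality of derivatives off `Ω` -/

theorem pdm_eq_off {Ω : Set (V n)} (hi : interior (closure Ω) = Ω) {F G : U.MC n N}
    (hF : SmC F) (hG : SmC G) (h : ∀ x ∉ Ω, F x = G x) {x : V n} (hx : x ∉ Ω) (i : Fin n) :
    pdm i F x = pdm i G x := by
  ext a b
  simp only [pdm, Matrix.of_apply]
  have h1 := fderiv_zero_off hi ((hF a b).sub (hG a b)) (fun y hy => by rw [h y hy, sub_self]) hx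
  have h2 := pd_sub (dfa (hF a b) x) (dfa (hG a b) x) i
  have h3 : pd i (fun y => F y a b - G y a b) x = 0 := by
    unfold pd
    rw [h1]
    rfl
  rw [h3] at h2
  exact (sub_eq_zero.1 h2.symm)

/-- **(U_RED)** -/
theorem red_of (hwk : U.RowWK) : U.RowREDU := by
  intro n N Ω hΩ hb hi s₁ s₂ hs₁ hs₂ hy₁ hy₂ hs A₁ A₂ hA₁ hA₂ hA F₁ F₂ hF₁ hF₂ hd₁ hd₂ hF hL₁ hL₂
    hOr
  have hdiv : ∀ (s : MF n) (A : Cn n N) (F : U.MC n N), SmM s → (∀ x, (s x).IsSymm) → SmU A →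
      SmC F → (∀ x ∈ Ω, U.LaC s A F x = 0) → ∀ x ∈ Ω, ∑ i, pdm i (U.qF s A F i) x = 0 := by
    intro s A F h1 h2 h3 h4 h5 x hx
    have h6 := H924.div_kF h1 h2 h3 h4 x
    have h7 : H924.LF s A F x = 0 := h5 x hx
    rw [h7, mul_zero, Matrix.conjTranspose_zero, zero_mul, sub_zero] at h6
    exact h6
  refine ⟨hdiv _ _ _ hs₁ hy₁ hA₁ hF₁ hL₁, hdiv _ _ _ hs₂ hy₂ hA₂ hF₂ hL₂, ?_⟩
  intro u w hu hw hMo hMt
  -- the section `v = star w`
  set v : V n → Fin N → ℂ := fun x => star (w x) with hvdef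
  have hv : ContDiff ℝ ∞ v := contDiff_starv hw
  have hwv : w = fun x => star (v x) := by
    funext x
    rw [hvdef]
    exact (star_star (w x)).symm
  have hMv : ∀ x ∈ Ω, U.Mo (U.TF s₂ F₂) (U.qF s₂ A₂ F₂) v x = 0 := by
    intro x hx
    have h1 := hMt x hx
    rw [hwv, Mt_star hs₂ hy₂ A₂ hF₂ hv] at h1
    exact star_eq_zero.1 h1
  have c1 : ∀ (F : U.MC n N), SmC F → ∀ z : V n → Fin N → ℂ, ContDiff ℝ ∞ z →
      ContDiff ℝ ∞ fun y => F y *ᵥ z y := fun F h z hz => contDiff_mulVec h hz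
  have l1 : ∀ x ∈ Ω, U.lav s₁ A₁ (fun y => F₁ y *ᵥ u y) x = 0 := fun x hx =>
    lav_zero hs₁ hy₁ hA₁ hF₁ hu (hd₁ x) (hL₁ x hx) (hMo x hx)
  have l2 : ∀ x ∈ Ω, U.lav s₂ A₂ (fun y => F₂ y *ᵥ v y) x = 0 := fun x hx =>
    lav_zero hs₂ hy₂ hA₂ hF₂ hv (hd₂ x) (hL₂ x hx) (hMv x hx)
  have hfr : ∀ x ∈ frontier Ω, x ∉ Ω := fun x hx h => by
    rw [hΩ.frontier_eq] at hx
    exact hx.2 h
  have e1 : U.ea Ω s₁ A₁ (fun y => F₁ y *ᵥ u y) (fun y => F₁ y *ᵥ v y) =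
      U.ea Ω s₁ A₁ (fun y => F₁ y *ᵥ u y) (fun y => F₂ y *ᵥ v y) := by
    have h1 := (hwk Ω hΩ hb s₁ hs₁ hy₁ A₁ hA₁ _ (fun y => F₁ y *ᵥ v y - F₂ y *ᵥ v y)
      (c1 F₁ hF₁ u hu) ((c1 F₁ hF₁ v hv).sub (c1 F₂ hF₂ v hv)) l1 fun x hx => by
        rw [hF x (hfr x hx), sub_self]).1
    rwa [ea_sub hb hs₁ hA₁ (c1 F₁ hF₁ u hu) (c1 F₁ hF₁ v hv) (c1 F₂ hF₂ v hv),
      sub_eq_zero] at h1
  have e2 := hOr _ _ (c1 F₁ hF₁ u hu) (c1 F₂ hF₂ v hv) l1 l2
  have e3 : U.ea Ω s₂ A₂ (fun y => F₁ y *ᵥ u y) (fun y => F₂ y *ᵥ v y) =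
      U.ea Ω s₂ A₂ (fun y => F₂ y *ᵥ u y) (fun y => F₂ y *ᵥ v y) := by
    have h1 := (hwk Ω hΩ hb s₂ hs₂ hy₂ A₂ hA₂ _ (fun y => F₁ y *ᵥ u y - F₂ y *ᵥ u y)
      (c1 F₂ hF₂ v hv) ((c1 F₁ hF₁ u hu).sub (c1 F₂ hF₂ u hu)) l2 fun x hx => by
        rw [hF x (hfr x hx), sub_self]).1
    rw [ea_sub hb hs₂ hA₂ (c1 F₂ hF₂ v hv) (c1 F₁ hF₁ u hu) (c1 F₂ hF₂ u hu),
      sub_eq_zero] at h1
    rw [ea_star Ω hy₂ A₂ (fun y => F₁ y *ᵥ u y), h1, ← ea_star Ω hy₂ A₂]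
  have e4 : U.ea Ω s₁ A₁ (fun y => F₁ y *ᵥ u y) (fun y => F₁ y *ᵥ v y) =
      U.ea Ω s₂ A₂ (fun y => F₂ y *ᵥ u y) (fun y => F₂ y *ᵥ v y) := e1.trans (e2.trans e3)
  -- the divergence terms
  let Z : ∀ (s : MF n) (A : Cn n N) (F : U.MC n N), Fin n → V n → ℂ := fun s A F i y =>
    (H924.HF s A F i y *ᵥ u y) ⬝ᵥ star (F y *ᵥ v y)
  have hZ : ∀ (s : MF n) (A : Cn n N) (F : U.MC n N), SmM s → SmU A → SmC F → ∀ i,
      ContDiff ℝ ∞ (Z s A F i) := by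
    intro s A F h1 h2 h3 i
    have h4 := contDiff_mulVec (H924.smC_HF h1 h2 h3 i) hu
    have h5 := c1 F h3 v hv
    show ContDiff ℝ ∞ fun y => ∑ c, (H924.HF s A F i y *ᵥ u y) c * star ((F y *ᵥ v y) c)
    exact ContDiff.sum fun c _ => ((contDiff_pi.1 h4) c).mul (contDiff_star ((contDiff_pi.1 h5) c))
  have i1 : ∀ (s : MF n) (A : Cn n N) (F : U.MC n N), SmM s → (∀ x, (s x).IsSymm) → SmU A →
      SmC F → (∀ x ∈ Ω, U.LaC s A F x = 0) →
      ∫ x in Ω, H924.qs s A F u v x = U.ea Ω s A (fun y => F y *ᵥ u y) (fun y => F y *ᵥ v y) -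
        ∫ x in Ω, ∑ i, pd i (Z s A F i) x := by
    intro s A F h1 h2 h3 h4 h5
    have h6 : Continuous fun x => ∑ i, pd i (Z s A F i) x :=
      continuous_finsetSum _ fun i _ => (LR.contDiff_pd (hZ s A F h1 h3 h4 i) i).continuous
    rw [ea_eq, ← integral_sub (intOn hb (qf_contS h1 h3 (c1 F h4 u hu) (c1 F h4 v hv)))
      (intOn hb h6)]
    refine setIntegral_congr_fun hΩ.measurableSet fun x hx => ?_
    have h7 := H924.frame_id h1 h2 h3 h4 hu hv (x := x) (h5 x hx)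
    show H924.qs s A F u v x = qf (s x) _ _ - ∑ i, pd i (Z s A F i) x
    rw [h7]
    ring
  have i2 : ∫ x in Ω, ∑ i, pd i (Z s₂ A₂ F₂ i) x = ∫ x in Ω, ∑ i, pd i (Z s₁ A₁ F₁ i) x := by
    have hoff : ∀ i, ∀ x ∉ Ω, Z s₂ A₂ F₂ i x - Z s₁ A₁ F₁ i x = 0 := by
      intro i x hx
      have h1 : H924.HF s₂ A₂ F₂ i x = H924.HF s₁ A₁ F₁ i x := by
        unfold H924.HF H924.cdF
        refine Finset.sum_congr rfl fun j _ => ?_
        rw [hs x hx, hA j x hx, hF x hx, pdm_eq_off hi hF₂ hF₁ hF hx j]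
      show (H924.HF s₂ A₂ F₂ i x *ᵥ u x) ⬝ᵥ star (F₂ x *ᵥ v x) -
        (H924.HF s₁ A₁ F₁ i x *ᵥ u x) ⬝ᵥ star (F₁ x *ᵥ v x) = 0
      rw [h1, hF x hx, sub_self]
    have hD : ∀ i, ContDiff ℝ ∞ fun x => Z s₂ A₂ F₂ i x - Z s₁ A₁ F₁ i x := fun i =>
      (hZ s₂ A₂ F₂ hs₂ hA₂ hF₂ i).sub (hZ s₁ A₁ F₁ hs₁ hA₁ hF₁ i)
    have h3 : ∀ i, ∫ x in Ω, pd i (fun x => Z s₂ A₂ F₂ i x - Z s₁ A₁ F₁ i x) x = 0 := by
      intro i
      have h4 := (integral_pd_zero hb (hD i) (hoff i) i).2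
      rw [← h4]
      refine setIntegral_eq_integral_of_forall_compl_eq_zero fun x hx => ?_
      unfold pd
      rw [fderiv_zero_off hi (hD i) (hoff i) hx]
      rfl
    have hc : ∀ (s : MF n) (A : Cn n N) (F : U.MC n N), SmM s → SmU A → SmC F →
        Continuous fun x => ∑ i, pd i (Z s A F i) x := fun s A F h1 h2 h3 =>
      continuous_finsetSum _ fun i _ => (LR.contDiff_pd (hZ s A F h1 h2 h3 i) i).continuous
    rw [← sub_eq_zero, ← integral_sub (intOn hb (hc _ _ _ hs₂ hA₂ hF₂))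
      (intOn hb (hc _ _ _ hs₁ hA₁ hF₁))]
    have h5 : ∀ x, ∑ i, pd i (Z s₂ A₂ F₂ i) x - ∑ i, pd i (Z s₁ A₁ F₁ i) x =
        ∑ i, pd i (fun x => Z s₂ A₂ F₂ i x - Z s₁ A₁ F₁ i x) x := by
      intro x
      rw [← Finset.sum_sub_distrib]
      refine Finset.sum_congr rfl fun i _ => ?_
      rw [pd_sub (dfa (hZ _ _ _ hs₂ hA₂ hF₂ i) x) (dfa (hZ _ _ _ hs₁ hA₁ hF₁ i) x)]
    simp only [h5]
    rw [integral_finsetSum _ fun i _ => intOn hb (LR.contDiff_pd (hD i) i).continuous]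
    exact Finset.sum_eq_zero fun i _ => h3 i
  have hq : ∀ (s : MF n) (A : Cn n N) (F : U.MC n N), SmM s → SmU A → SmC F →
      Continuous fun x => H924.qs s A F u v x := by
    intro s A F h1 h2 h3
    have hT : ∀ i j, ContDiff ℝ ∞ fun x => H924.TF s F i j x *ᵥ pd i u x := fun i j =>
      contDiff_mulVec (smC_TF h1 h3 i j) (H158.contDiff_pd hu i)
    have hk : ∀ i, SmC (H924.kF s A F i) := fun i =>
      H924.smC_sum _ fun j => H924.smC_smul (Complex.ofRealCLM.contDiff.comp (h1 i j)) (by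
        intro a b
        exact (SmC_mul (SmC_star h3) (H924.smC_cdF h2 h3 j) a b).sub
          (SmC_mul (SmC_star (H924.smC_cdF h2 h3 j)) h3 a b))
    have hK : ∀ i, ContDiff ℝ ∞ fun x => H924.kF s A F i x *ᵥ pd i u x := fun i =>
      contDiff_mulVec (hk i) (H158.contDiff_pd hu i)
    have hdot : ∀ a b : V n → Fin N → ℂ, ContDiff ℝ ∞ a → ContDiff ℝ ∞ b →
        Continuous fun x => a x ⬝ᵥ star (b x) := by
      intro a b ha hb'
      show Continuous fun x => ∑ c, a x c * star (b x c)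
      exact continuous_finsetSum _ fun c _ => ((contDiff_pi.1 ha) c).continuous.mul
        (contDiff_star ((contDiff_pi.1 hb') c)).continuous
    unfold H924.qs
    exact (continuous_finsetSum _ fun i _ => continuous_finsetSum _ fun j _ =>
      hdot _ _ (hT i j) (H158.contDiff_pd hv j)).sub
        (continuous_finsetSum _ fun i _ => hdot _ _ (hK i) hv)
  have hfin : ∫ x in Ω, ((∑ i, ∑ j, pd j w x ⬝ᵥ ((U.TF s₂ F₂ j i x - U.TF s₁ F₁ j i x) *ᵥ
      pd i u x)) - ∑ i, w x ⬝ᵥ ((U.qF s₂ A₂ F₂ i x - U.qF s₁ A₁ F₁ i x) *ᵥ pd i u x)) =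
      (∫ x in Ω, H924.qs s₂ A₂ F₂ u v x) - ∫ x in Ω, H924.qs s₁ A₁ F₁ u v x := by
    rw [← integral_sub (intOn hb (hq _ _ _ hs₂ hA₂ hF₂)) (intOn hb (hq _ _ _ hs₁ hA₁ hF₁))]
    congr 1
    funext x
    unfold H924.qs
    have g1 : ∀ i j, pd j w x ⬝ᵥ ((U.TF s₂ F₂ j i x - U.TF s₁ F₁ j i x) *ᵥ pd i u x) =
        (H924.TF s₂ F₂ i j x *ᵥ pd i u x) ⬝ᵥ star (pd j v x) -
          (H924.TF s₁ F₁ i j x *ᵥ pd i u x) ⬝ᵥ star (pd j v x) := by
      intro i j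
      have h1 : pd j w x = star (pd j v x) := by rw [hwv, pd_starv hv]
      rw [h1, Matrix.sub_mulVec, dotProduct_sub, TF_sym hy₂ F₂ j i x, TF_sym hy₁ F₁ j i x,
        dotProduct_comm, dotProduct_comm (star (pd j v x))]
      rfl
    have g2 : ∀ i, w x ⬝ᵥ ((U.qF s₂ A₂ F₂ i x - U.qF s₁ A₁ F₁ i x) *ᵥ pd i u x) =
        (H924.kF s₂ A₂ F₂ i x *ᵥ pd i u x) ⬝ᵥ star (v x) -
          (H924.kF s₁ A₁ F₁ i x *ᵥ pd i u x) ⬝ᵥ star (v x) := by
      intro i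
      have h1 : w x = star (v x) := by rw [hwv]
      rw [h1, Matrix.sub_mulVec, dotProduct_sub, dotProduct_comm, dotProduct_comm (star (v x))]
      rfl
    simp only [g1, g2, Finset.sum_sub_distrib]
    ring
  rw [hfin, i1 _ _ _ hs₂ hy₂ hA₂ hF₂ hL₂, i1 _ _ _ hs₁ hy₁ hA₁ hF₁ hL₁, e4, i2, sub_self]

theorem red : U.RowREDU := red_of wk

end Vale.Agent.P088.H106
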