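import Vale.Agent.P088.H599.J.Defs
import Vale.Agent.P088.H924.Orth

/-!
# P088, theorem J: the weak equation, both slots (row U_WK)
-/

open MeasureTheory Set Filter Topology
open scoped ContDiff Matrix

noncomputable section

namespace Vale.Agent.P088.H106

open Vale.Agent.P088.LR Vale.Agent.P088.LR.H158 Vale.Agent.P088.LR.U Vale.Agent.P088.H924

variable {n N : ℕ}

theorem ea_eq (Ω : Set (V n)) (s : MF n) (A : Cn n N) (u v : V n → Fin N → ℂ) :
    ea Ω s A u v = ∫ x in Ω, qf (s x) (fun i => cd A i u x) (fun i => cd A i v x) := rfl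

theorem lav_eq (s : MF n) (A : Cn n N) (u : V n → Fin N → ℂ) (x : V n) :
    lav s A u x = LA s A u x := rfl

/-- **Green formula** for `(s, A)`, test section zero on the frontier. -/
theorem ea_green {Ω : Set (V n)} (hΩ : IsOpen Ω) (hb : Bornology.IsBounded Ω) {s : MF n}
    (hs : SmM s) (hsym : ∀ x, (s x).IsSymm) {A : Cn n N} (hA : SmU A)
    {u φ : V n → Fin N → ℂ} (hu : ContDiff ℝ ∞ u) (hφ : ContDiff ℝ ∞ φ)
    (h0 : ∀ x ∈ frontier Ω, φ x = 0) :
    ea Ω s A u φ = -∫ x in Ω, lav s A u x ⬝ᵥ star (φ x) := by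
  have hGb : ∀ j b, ContDiff ℝ ∞ fun y => Gf s A u j y b := fun j b =>
    (contDiff_pi.1 (contDiff_Gf hs hA hu j)) b
  have hψ : ∀ b, ContDiff ℝ ∞ fun y => star (φ y b) := fun b =>
    contDiff_star ((contDiff_pi.1 hφ) b)
  have hW : ∀ b, ∫ x in Ω, ∑ j, Gf s A u j x b * pd j (fun y => star (φ y b)) x =
      -∫ x in Ω, (∑ j, pd j (fun y => Gf s A u j y b) x) * star (φ x b) := fun b =>
    weak_flux hΩ hb (fun j => hGb j b) (hψ b) fun x hx => by
      rw [h0 x hx]
      simp
  have c1 : ∀ b, Continuous fun x => ∑ j, Gf s A u j x b * pd j (fun y => star (φ y b)) x :=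
    fun b => continuous_finsetSum _ fun j _ => (hGb j b).continuous.mul
      (LR.contDiff_pd (hψ b) j).continuous
  have c2 : ∀ b, Continuous fun x =>
      (∑ j, pd j (fun y => Gf s A u j y b) x) * star (φ x b) := fun b =>
    (continuous_finsetSum _ fun j _ => (LR.contDiff_pd (hGb j b) j).continuous).mul
      (hψ b).continuous
  have c3 : Continuous fun x => (∑ j, A j x *ᵥ Gf s A u j x) ⬝ᵥ star (φ x) := by
    have h3 : ContDiff ℝ ∞ fun x => ∑ j, A j x *ᵥ Gf s A u j x :=
      ContDiff.sum fun j _ => contDiff_mulVec (hA.1 j) (contDiff_Gf hs hA hu j)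
    unfold dotProduct
    exact continuous_finsetSum _ fun b _ => ((continuous_pi_iff.1 h3.continuous) b).mul
      (hψ b).continuous
  have e1 : ea Ω s A u φ = (∑ b, ∫ x in Ω, ∑ j, Gf s A u j x b *
      pd j (fun y => star (φ y b)) x) -
        ∫ x in Ω, (∑ j, A j x *ᵥ Gf s A u j x) ⬝ᵥ star (φ x) := by
    rw [ea_eq]
    simp only [qf_flux hsym hA hφ]
    rw [integral_sub (intOn hb (continuous_finsetSum _ fun b _ => c1 b)) (intOn hb c3),
      integral_finsetSum _ fun b _ => intOn hb (c1 b)]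
  have e2 : ∫ x in Ω, lav s A u x ⬝ᵥ star (φ x) =
      (∑ b, ∫ x in Ω, (∑ j, pd j (fun y => Gf s A u j y b) x) * star (φ x b)) +
        ∫ x in Ω, (∑ j, A j x *ᵥ Gf s A u j x) ⬝ᵥ star (φ x) := by
    simp only [lav_eq, LA_flux hs hA hu]
    rw [integral_add (intOn hb (continuous_finsetSum _ fun b _ => c2 b)) (intOn hb c3),
      integral_finsetSum _ fun b _ => intOn hb (c2 b)]
  rw [e1, e2, Finset.sum_congr rfl fun b _ => hW b, Finset.sum_neg_distrib]
  ring

/-- Hermitian symmetry. -/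
theorem ea_star (Ω : Set (V n)) {s : MF n} (hsym : ∀ x, (s x).IsSymm) (A : Cn n N)
    (u v : V n → Fin N → ℂ) : ea Ω s A u v = star (ea Ω s A v u) := by
  rw [ea_eq, ea_eq]
  have h1 := integral_conj (μ := (volume : Measure (V n)).restrict Ω)
    (f := fun x => qf (s x) (fun i => cd A i v x) (fun i => cd A i u x))
  refine Eq.trans ?_ h1
  congr 1
  funext x
  unfold qf
  rw [map_sum, Finset.sum_comm]
  refine Finset.sum_congr rfl fun j _ => ?_
  rw [map_sum]
  refine Finset.sum_congr rfl fun i _ => ?_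
  rw [map_mul, Complex.conj_ofReal, (hsym x).apply j i]
  congr 1
  unfold dotProduct
  rw [map_sum]
  refine Finset.sum_congr rfl fun b _ => ?_
  simp [mul_comm]

/-- **(U_WK)** -/
theorem wk : RowWK := by
  intro n N Ω hΩ hb s hs hsym A hA u φ hu hφ hu0 h0
  have h : ea Ω s A u φ = 0 := by
    rw [ea_green hΩ hb hs hsym hA hu hφ h0, neg_eq_zero]
    refine setIntegral_eq_zero_of_forall_eq_zero fun x hx => ?_
    rw [hu0 x hx, zero_dotProduct]
  exact ⟨h, by rw [ea_star Ω hsym A φ u, h, star_zero]⟩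

end Vale.Agent.P088.H106
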